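import Mathlib

/-!
# Row 268 (S0408): the "cross" construction

On `ℂ[p, e₁, e₂, w]` put `x = e₁ e₂² + p w`, `y = x e₂ + p e₁`, `F = p - ε x y`.  After adjoining
a variable `T` there are `E₁, E₂, W, T₂` such that `(F, E₁, E₂, W, T₂)` has the same `x`, `y`, and
the same construction with `-ε` returns `(p, e₁, e₂, w, T)`.
-/

set_option autoImplicit false
set_option linter.unusedSectionVars false

namespace Crest.Agent.R268.Cross

variable {R : Type} [CommRing R]

def x (p a b w : R) : R := a * b ^ 2 + p * w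
def y (p a b w : R) : R := x p a b w * b + p * a
def F (ε p a b w : R) : R := p - ε * x p a b w * y p a b w
def G (p a b w : R) : R := x p a b w ^ 2 * w - 2 * x p a b w * a ^ 2 * b - p * a ^ 3
def z (ε p a b w : R) : R := b + 2 * ε * y p a b w * a + x p a b w * G p a b w
def n (X a b w : R) : R := a ^ 3 + X * w ^ 2 - a ^ 2 * b * w
def mu (p a b w : R) : R := a * b * x p a b w - p * a ^ 2 + p * a * b * w
def m (ε p a b w : R) : R := mu p a b w + ε * x p a b w * (p + F ε p a b w) * n (x p a b w) a b w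
def E₂ (ε p a b w T : R) : R := z ε p a b w - ε * m ε p a b w + F ε p a b w ^ 2 * T
def E₁ (ε p a b w T : R) : R :=
  a + ε * x p a b w * (a * (b * w - 2 * a) + ε * x p a b w * n (x p a b w) a b w)
    - F ε p a b w * x p a b w * T

theorem pG (p a b w : R) : p * G p a b w = x p a b w ^ 3 - a * y p a b w ^ 2 := by
  have hx : x p a b w = a * b ^ 2 + p * w := rfl
  unfold G y
  linear_combination (-x p a b w ^ 2) * hx

theorem ymu (p a b w : R) :
    y p a b w * mu p a b w = x p a b w ^ 3 - p ^ 2 * n (x p a b w) a b w := by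
  have hx : x p a b w = a * b ^ 2 + p * w := rfl
  unfold mu y n
  linear_combination (-x p a b w ^ 2 - x p a b w * p * w) * hx

theorem Gn (p a b w : R) :
    G p a b w - p * n (x p a b w) a b w = y p a b w * (a * (b * w - 2 * a)) := by
  have hx : x p a b w = a * b ^ 2 + p * w := rfl
  unfold G y n
  linear_combination (x p a b w * w) * hx

/-- the defining relations of `W` and `T₂` -/
structure Rel (ε p a b w T W T₂ : R) : Prop where
  hW : F ε p a b w * W = x p a b w - E₁ ε p a b w T * E₂ ε p a b w T ^ 2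
  hT : y p a b w * (T₂ + T) =
    ε * (n (x p a b w) (E₁ ε p a b w T) (E₂ ε p a b w T) W - n (x p a b w) a b w)

section map
variable {R' : Type} [CommRing R'] (φ : R →+* R')

theorem map_x (p a b w : R) : φ (x p a b w) = x (φ p) (φ a) (φ b) (φ w) := by simp [x]
theorem map_y (p a b w : R) : φ (y p a b w) = y (φ p) (φ a) (φ b) (φ w) := by simp [y, map_x]
theorem map_F (ε p a b w : R) : φ (F ε p a b w) = F (φ ε) (φ p) (φ a) (φ b) (φ w) := by
  simp [F, map_x, map_y]
theorem map_G (p a b w : R) : φ (G p a b w) = G (φ p) (φ a) (φ b) (φ w) := by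
  simp [G, map_x, map_ofNat]
theorem map_z (ε p a b w : R) : φ (z ε p a b w) = z (φ ε) (φ p) (φ a) (φ b) (φ w) := by
  simp [z, map_x, map_y, map_G, map_ofNat]
theorem map_n (X a b w : R) : φ (n X a b w) = n (φ X) (φ a) (φ b) (φ w) := by simp [n]
theorem map_E₂ (ε p a b w T : R) :
    φ (E₂ ε p a b w T) = E₂ (φ ε) (φ p) (φ a) (φ b) (φ w) (φ T) := by
  simp [E₂, m, mu, map_x, map_z, map_F, map_n]
theorem map_E₁ (ε p a b w T : R) :
    φ (E₁ ε p a b w T) = E₁ (φ ε) (φ p) (φ a) (φ b) (φ w) (φ T) := by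
  simp [E₁, map_x, map_F, map_n, map_ofNat]

theorem Rel.map {ε p a b w T W T₂ : R} (h : Rel ε p a b w T W T₂) :
    Rel (φ ε) (φ p) (φ a) (φ b) (φ w) (φ T) (φ W) (φ T₂) := by
  constructor
  · simpa only [map_mul, map_sub, map_pow, map_F, map_x, map_E₁, map_E₂] using congrArg φ h.hW
  · simpa only [map_mul, map_sub, map_add, map_n, map_y, map_x, map_E₁, map_E₂]
      using congrArg φ h.hT

end map

variable {ε : R} (hε : ε ^ 2 = 1) (p a b w T : R)
include hε

theorem ym : y p a b w * m ε p a b w = x p a b w ^ 3 - F ε p a b w ^ 2 * n (x p a b w) a b w := by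
  unfold m F
  linear_combination ymu p a b w

theorem yE₁ : y p a b w * E₁ ε p a b w T = y p a b w * a + ε * x p a b w * G p a b w
    - ε * x p a b w * F ε p a b w * n (x p a b w) a b w
    - F ε p a b w * x p a b w * y p a b w * T := by
  unfold E₁ F
  linear_combination (-ε * x p a b w) * Gn p a b w

theorem Fb : x p a b w * y p a b w * z ε p a b w - y p a b w ^ 2 - ε * x p a b w ^ 4 =
    -(F ε p a b w * (y p a b w * a + ε * x p a b w * G p a b w)) := by
  have hy : y p a b w = x p a b w * b + p * a := rfl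
  unfold z F
  linear_combination (-y p a b w) * hy + (ε * x p a b w) * pG p a b w
    - (x p a b w ^ 2 * y p a b w * G p a b w) * hε

theorem FE₁ [IsDomain R] (hy : y p a b w ≠ 0) :
    F ε p a b w * E₁ ε p a b w T = y p a b w - x p a b w * E₂ ε p a b w T := by
  apply mul_left_cancel₀ hy
  have h1 := yE₁ hε p a b w T
  have h2 := ym hε p a b w
  have h3 := Fb hε p a b w
  unfold E₂
  linear_combination F ε p a b w * h1 - ε * x p a b w * h2 + h3

theorem FG₁ : F ε p a b w * (G p a b w + ε * x p a b w * y p a b w * n (x p a b w) a b w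
    + x p a b w * y p a b w ^ 2 * T) = x p a b w ^ 3 - E₁ ε p a b w T * y p a b w ^ 2 := by
  have h1 := yE₁ hε p a b w T
  have hF : F ε p a b w = p - ε * x p a b w * y p a b w := rfl
  linear_combination y p a b w * h1 + pG p a b w + G p a b w * hF

variable {p a b w T}

theorem star_x {W : R} (hW : F ε p a b w * W = x p a b w - E₁ ε p a b w T * E₂ ε p a b w T ^ 2) :
    x (F ε p a b w) (E₁ ε p a b w T) (E₂ ε p a b w T) W = x p a b w := by
  rw [x]; linear_combination hW

theorem star_y [IsDomain R] (hy : y p a b w ≠ 0) {W : R}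
    (hW : F ε p a b w * W = x p a b w - E₁ ε p a b w T * E₂ ε p a b w T ^ 2) :
    y (F ε p a b w) (E₁ ε p a b w T) (E₂ ε p a b w T) W = y p a b w := by
  rw [y, star_x hε hW]; linear_combination FE₁ hε p a b w T hy

theorem star_F [IsDomain R] (hy : y p a b w ≠ 0) {W : R}
    (hW : F ε p a b w * W = x p a b w - E₁ ε p a b w T * E₂ ε p a b w T ^ 2) :
    F (-ε) (F ε p a b w) (E₁ ε p a b w T) (E₂ ε p a b w T) W = p := by
  rw [F, star_x hε hW, star_y hε hy hW, F]; ring

theorem exists_rel [IsDomain R] (hp : Prime p) (hx : ¬ p ∣ x p a b w) (hy : ¬ p ∣ y p a b w) :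
    ∃ W T₂, Rel ε p a b w T W T₂ := by
  have hF : F ε p a b w = p - ε * x p a b w * y p a b w := rfl
  have cop : ∀ {u : R}, ¬ p ∣ u → ∀ c, u ∣ p * c → u ∣ c := by
    rintro u hu c ⟨k, hk⟩
    obtain ⟨l, rfl⟩ := (hp.dvd_or_dvd (Dvd.intro _ hk)).resolve_left hu
    exact ⟨l, mul_left_cancel₀ hp.ne_zero (by rw [hk]; ring)⟩
  have hx0 : x p a b w ≠ 0 := fun h => hx (h ▸ dvd_zero p)
  have hy0 : y p a b w ≠ 0 := fun h => hy (h ▸ dvd_zero p)
  have c1 : ∀ c, F ε p a b w ∣ x p a b w * c → F ε p a b w ∣ c := by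
    rintro c ⟨k, hk⟩
    obtain ⟨l, rfl⟩ := cop hx k ⟨c + ε * y p a b w * k, by linear_combination -hk - k * hF⟩
    exact ⟨l, mul_left_cancel₀ hx0 (by rw [hk]; ring)⟩
  have c2 : ∀ c, y p a b w ∣ F ε p a b w * c → y p a b w ∣ c := by
    rintro c ⟨k, hk⟩
    exact cop hy c ⟨k + ε * x p a b w * c, by linear_combination hk - c * hF⟩
  have h1 := FE₁ hε p a b w T hy0
  have h2 := FG₁ hε p a b w T
  obtain ⟨W, hW⟩ : F ε p a b w ∣ x p a b w - E₁ ε p a b w T * E₂ ε p a b w T ^ 2 := by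
    refine c1 _ (c1 _ ⟨G p a b w + ε * x p a b w * y p a b w * n (x p a b w) a b w
      + x p a b w * y p a b w ^ 2 * T + 2 * x p a b w * E₁ ε p a b w T ^ 2 * E₂ ε p a b w T
      + F ε p a b w * E₁ ε p a b w T ^ 3, ?_⟩)
    linear_combination -h2 - E₁ ε p a b w T *
      (F ε p a b w * E₁ ε p a b w T + y p a b w + x p a b w * E₂ ε p a b w T) * h1
  have h3 := ymu (F ε p a b w) (E₁ ε p a b w T) (E₂ ε p a b w T) W
  rw [star_x hε hW.symm, star_y hε hy0 hW.symm] at h3
  obtain ⟨k, hk⟩ : y p a b w ∣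
      n (x p a b w) (E₁ ε p a b w T) (E₂ ε p a b w T) W - n (x p a b w) a b w := by
    refine c2 _ (c2 _ ⟨m ε p a b w - mu (F ε p a b w) (E₁ ε p a b w T) (E₂ ε p a b w T) W, ?_⟩)
    linear_combination h3 - ym hε p a b w
  exact ⟨W, ε * k - T, hW.symm, by rw [hk]; ring⟩

theorem mirror [IsDomain R] (hp : p ≠ 0) (hy : y p a b w ≠ 0) (hF0 : F ε p a b w ≠ 0)
    {W T₂ W' T' : R} (h : Rel ε p a b w T W T₂)
    (h' : Rel (-ε) (F ε p a b w) (E₁ ε p a b w T) (E₂ ε p a b w T) W T₂ W' T') :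
    E₁ (-ε) (F ε p a b w) (E₁ ε p a b w T) (E₂ ε p a b w T) W T₂ = a ∧
      E₂ (-ε) (F ε p a b w) (E₁ ε p a b w T) (E₂ ε p a b w T) W T₂ = b ∧ W' = w ∧ T' = T := by
  have hε' : (-ε) ^ 2 = 1 := by rw [neg_sq, hε]
  have sx := star_x hε h.hW
  have sy := star_y hε hy h.hW
  have sF := star_F hε hy h.hW
  have hF : F ε p a b w = p - ε * x p a b w * y p a b w := rfl
  have e2 : E₂ (-ε) (F ε p a b w) (E₁ ε p a b w T) (E₂ ε p a b w T) W T₂ = b := by
    have h1 := pG (F ε p a b w) (E₁ ε p a b w T) (E₂ ε p a b w T) W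
    rw [sx, sy, ← FG₁ hε p a b w T] at h1
    have h2 := mul_left_cancel₀ hF0 h1
    have h3 := ym hε' (F ε p a b w) (E₁ ε p a b w T) (E₂ ε p a b w T) W
    rw [sx, sy, sF] at h3
    have h4 := ym hε p a b w
    have h5 := yE₁ hε p a b w T
    have h6 := h.hT
    have h7 : E₂ ε p a b w T = b + 2 * ε * y p a b w * a + x p a b w * G p a b w
      - ε * m ε p a b w + F ε p a b w ^ 2 * T := rfl
    apply mul_left_cancel₀ hy
    rw [E₂, z, sx, sy, sF, h2]
    generalize n (x p a b w) (E₁ ε p a b w T) (E₂ ε p a b w T) W = N at *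
    generalize m (-ε) (F ε p a b w) (E₁ ε p a b w T) (E₂ ε p a b w T) W = M at *
    generalize E₂ ε p a b w T = E at *
    generalize F ε p a b w = Φ at *
    linear_combination y p a b w * h7 + ε * h3 - ε * h4 + p ^ 2 * h6 - 2 * ε * y p a b w * h5
      + (ε * n (x p a b w) a b w + y p a b w * T) * (Φ + p + ε * x p a b w * y p a b w) * hF
      + (-2 * x p a b w * y p a b w * G p a b w
        - x p a b w ^ 2 * y p a b w ^ 2 * (ε * n (x p a b w) a b w + y p a b w * T)
        + 2 * x p a b w * y p a b w * Φ * n (x p a b w) a b w * 0) * hε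
  have e1 : E₁ (-ε) (F ε p a b w) (E₁ ε p a b w T) (E₂ ε p a b w T) W T₂ = a := by
    have h1 := FE₁ hε' (F ε p a b w) (E₁ ε p a b w T) (E₂ ε p a b w T) W T₂ (by rwa [sy])
    rw [sx, sy, sF, e2] at h1
    apply mul_left_cancel₀ hp
    rw [h1, y]; ring
  have e3 : W' = w := by
    have h1 := h'.hW
    rw [sx, sF, e1, e2] at h1
    apply mul_left_cancel₀ hp
    rw [h1, x]; ring
  refine ⟨e1, e2, e3, ?_⟩
  have h1 := h'.hT
  rw [sx, sy, e1, e2, e3] at h1
  apply mul_left_cancel₀ hy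
  linear_combination h1 - h.hT

end Crest.Agent.R268.Cross
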